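import Vale.Agent.P154.Data.A2D

/-! Certificates of a chain of potentials, node 1. -/

namespace Vale.Agent.P154.A2

def t_b1 : Tree := (.leaf 52 10 1 4 1)
theorem b1 : t_b1.ok 0 1 0 0 (BE 1 D11 (1, 3) (-1, 7) (0, 0) p11 k01 k11) unitBx = true := by decide +kernel

def t_s1 : Tree := (.s1 (.leaf 55 7 10 4 1) (.leaf 59 7 10 4 1))
theorem s1_0 : (Tree.leaf 55 7 10 4 1).ok 0 1 0 0 (SE D12 (0, 0) (1, 3) [p11, p12])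
    ⟨0, 1, 1, 0, 1, 2, 0, 1, 1, 0, 1, 1⟩ = true := by decide +kernel
theorem s1_1 : (Tree.leaf 59 7 10 4 1).ok 0 1 0 0 (SE D12 (0, 0) (1, 3) [p11, p12])
    ⟨0, 1, 1, 1, 2, 2, 0, 1, 1, 0, 1, 1⟩ = true := by decide +kernel
theorem s1 : t_s1.ok 0 1 0 0 (SE D12 (0, 0) (1, 3) [p11, p12]) unitBx = true :=
  (Tree.ok_s1 s1_0 s1_1)

def t_r1 : Tree := (.leaf 44 10 1 4 1)
theorem r1 : t_r1.ok 0 1 0 0 (RE D12 (0, 0)) unitBx = true := by decide +kernel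

def t_u12 : Tree := (.s0 (.s1 (.leaf 75 11 10 4 1) (.leaf 79 11 10 4 1)) (.leaf 73 11 10 4 1))
theorem u12_0 : (Tree.leaf 75 11 10 4 1).ok 0 1 0 0 (UE0 (1, 0) D12)
    ⟨0, 1, 2, 0, 1, 2, 0, 1, 1, 0, 1, 1⟩ = true := by decide +kernel
theorem u12_1 : (Tree.leaf 79 11 10 4 1).ok 0 1 0 0 (UE0 (1, 0) D12)
    ⟨0, 1, 2, 1, 2, 2, 0, 1, 1, 0, 1, 1⟩ = true := by decide +kernel
theorem u12_2 : (Tree.leaf 73 11 10 4 1).ok 0 1 0 0 (UE0 (1, 0) D12)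
    ⟨1, 2, 2, 0, 1, 1, 0, 1, 1, 0, 1, 1⟩ = true := by decide +kernel
theorem u12 : t_u12.ok 0 1 0 0 (UE0 (1, 0) D12) unitBx = true :=
  (Tree.ok_s0 (Tree.ok_s1 u12_0 u12_1) u12_2)

def t_v12 : Tree := (.s1 (.leaf 75 11 10 4 1) (.leaf 79 11 10 4 1))
theorem v12_0 : (Tree.leaf 75 11 10 4 1).ok 0 1 0 0 (UE1 (1, 1) D12)
    ⟨0, 1, 1, 0, 1, 2, 0, 1, 1, 0, 1, 1⟩ = true := by decide +kernel
theorem v12_1 : (Tree.leaf 79 11 10 4 1).ok 0 1 0 0 (UE1 (1, 1) D12)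
    ⟨0, 1, 1, 1, 2, 2, 0, 1, 1, 0, 1, 1⟩ = true := by decide +kernel
theorem v12 : t_v12.ok 0 1 0 0 (UE1 (1, 1) D12) unitBx = true :=
  (Tree.ok_s1 v12_0 v12_1)

def t_h12 : Tree := (.s0 (.leaf 91 11 11 5 5) (.leaf 95 11 11 5 5))
theorem h12_0 : (Tree.leaf 91 11 11 5 5).ok 0 1 0 0 (HE 1 D11 D12 (1, 3) (-1, 7) p12 k02 k12)
    ⟨0, 1, 2, 0, 1, 1, 0, 1, 1, 0, 1, 1⟩ = true := by decide +kernel
theorem h12_1 : (Tree.leaf 95 11 11 5 5).ok 0 1 0 0 (HE 1 D11 D12 (1, 3) (-1, 7) p12 k02 k12)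
    ⟨1, 2, 2, 0, 1, 1, 0, 1, 1, 0, 1, 1⟩ = true := by decide +kernel
theorem h12 : t_h12.ok 0 1 0 0 (HE 1 D11 D12 (1, 3) (-1, 7) p12 k02 k12) unitBx = true :=
  (Tree.ok_s0 h12_0 h12_1)

end Vale.Agent.P154.A2
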