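import Vale.Agent.P154.Data.A2D

/-! Certificates of a chain of potentials, node 2. -/

namespace Vale.Agent.P154.A2

def t_b2 : Tree := (.leaf 42 7 1 4 1)
theorem b2 : t_b2.ok 0 1 0 0 (BE 2 D21 (1, 3) (-1, 7) (-12026, 1023) p21 k01 k11) unitBx = true := by decide +kernel

def t_s2 : Tree := (.leaf 42 7 7 4 1)
theorem s2 : t_s2.ok 0 1 0 0 (SE D22 (-12025, 1023) (1, 3) [p21, p22]) unitBx = true := by decide +kernel

def t_r2 : Tree := (.leaf 35 7 1 3 1)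
theorem r2 : t_r2.ok 0 1 0 0 (RE D22 (-12025, 1023)) unitBx = true := by decide +kernel

def t_u22 : Tree := (.leaf 51 11 7 3 1)
theorem u22 : t_u22.ok 0 1 0 0 (UE0 (1, 0) D22) unitBx = true := by decide +kernel

def t_v22 : Tree := (.leaf 59 11 7 3 1)
theorem v22 : t_v22.ok 0 1 0 0 (UE1 (1, 1) D22) unitBx = true := by decide +kernel

def t_h22 : Tree := (.s0 (.leaf 91 11 11 5 5) (.leaf 93 11 11 5 5))
theorem h22_0 : (Tree.leaf 91 11 11 5 5).ok 0 1 0 0 (HE 2 D21 D22 (1, 3) (-1, 7) p22 k02 k12)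
    ⟨0, 1, 2, 0, 1, 1, 0, 1, 1, 0, 1, 1⟩ = true := by decide +kernel
theorem h22_1 : (Tree.leaf 93 11 11 5 5).ok 0 1 0 0 (HE 2 D21 D22 (1, 3) (-1, 7) p22 k02 k12)
    ⟨1, 2, 2, 0, 1, 1, 0, 1, 1, 0, 1, 1⟩ = true := by decide +kernel
theorem h22 : t_h22.ok 0 1 0 0 (HE 2 D21 D22 (1, 3) (-1, 7) p22 k02 k12) unitBx = true :=
  (Tree.ok_s0 h22_0 h22_1)

end Vale.Agent.P154.A2
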