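import Vale.Agent.P154.Data.A3D

/-! Certificates of a chain of potentials, node 2. -/

namespace Vale.Agent.P154.A3

def t_b2 : Tree := (.leaf 41 7 1 4 1)
theorem b2 : t_b2.ok 0 1 0 0 (BE 2 D21 (1, 3) (-1, 7) (-7194, 1023) p21 k01 k11) unitBx = true := by decide +kernel

def t_s2 : Tree := (.s2 (.leaf 44 7 7 4 1) (.leaf 45 7 7 4 1))
theorem s2_0 : (Tree.leaf 44 7 7 4 1).ok 0 1 0 0 (SE D23 (-7193, 1023) (1, 3) [p21, p22, p23])
    ⟨0, 1, 1, 0, 1, 1, 0, 1, 2, 0, 1, 1⟩ = true := by decide +kernel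
theorem s2_1 : (Tree.leaf 45 7 7 4 1).ok 0 1 0 0 (SE D23 (-7193, 1023) (1, 3) [p21, p22, p23])
    ⟨0, 1, 1, 0, 1, 1, 1, 2, 2, 0, 1, 1⟩ = true := by decide +kernel
theorem s2 : t_s2.ok 0 1 0 0 (SE D23 (-7193, 1023) (1, 3) [p21, p22, p23]) unitBx = true :=
  (Tree.ok_s2 s2_0 s2_1)

def t_r2 : Tree := (.leaf 34 7 1 3 1)
theorem r2 : t_r2.ok 0 1 0 0 (RE D23 (-7193, 1023)) unitBx = true := by decide +kernel

def t_u22 : Tree := (.leaf 50 11 7 3 1)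
theorem u22 : t_u22.ok 0 1 0 0 (UE0 (1, 0) D22) unitBx = true := by decide +kernel

def t_v22 : Tree := (.leaf 58 11 7 3 1)
theorem v22 : t_v22.ok 0 1 0 0 (UE1 (1, 1) D22) unitBx = true := by decide +kernel

def t_h22 : Tree := (.leaf 81 11 11 5 5)
theorem h22 : t_h22.ok 0 1 0 0 (HE 2 D21 D22 (1, 3) (-1, 7) p22 k02 k12) unitBx = true := by decide +kernel

def t_u23 : Tree := (.leaf 50 11 7 3 1)
theorem u23 : t_u23.ok 0 1 0 0 (UE0 (1, 0) D23) unitBx = true := by decide +kernel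

def t_v23 : Tree := (.leaf 59 11 7 3 1)
theorem v23 : t_v23.ok 0 1 0 0 (UE1 (1, 1) D23) unitBx = true := by decide +kernel

def t_h23 : Tree := (.leaf 81 11 11 5 5)
theorem h23 : t_h23.ok 0 1 0 0 (HE 2 D22 D23 (1, 3) (-1, 7) p23 k03 k13) unitBx = true := by decide +kernel

end Vale.Agent.P154.A3
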