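import Vale.Agent.P154.Data.A4N0
import Vale.Agent.P154.Data.A4N1
import Vale.Agent.P154.Data.A4N2

/-! A certified chain of potentials. -/

namespace Vale.Agent.P154.A4

theorem cert : ChainCert 4 (-97 / 200) D psi hh (9409, 39999) (-912673, 7999999) (97, 99) (97, 199) (9409, 39999) (-21529, 4095) (-21525, 4095) psil where
  hd := by norm_num
  hl0 := by norm_num
  hl1 := by norm_num
  hne := by norm_num
  e2 := by norm_num [cv]
  e3 := by norm_num [cv]
  hf := by norm_num [cv]
  hw := by norm_num [cv]
  r1 := by norm_num [cv]
  r2 := by norm_num [cv]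
  r3 := by norm_num [cv]
  r4 := by norm_num [cv]
  hc := by norm_num [cv]
  hc' := by norm_num [cv]
  hU0 := by
    intro j k hj h2 hk
    interval_cases j <;> interval_cases k
    exacts [box_zero _ _ u02, box_zero _ _ u03, box_zero _ _ u04, box_zero _ _ u12, box_zero _ _ u13, box_zero _ _ u14, box_zero _ _ u22, box_zero _ _ u23, box_zero _ _ u24]
  hU1 := by
    intro j k hj h2 hk
    interval_cases j <;> interval_cases k
    exacts [box_zero _ _ v02, box_zero _ _ v03, box_zero _ _ v04, box_zero _ _ v12, box_zero _ _ v13, box_zero _ _ v14, box_zero _ _ v22, box_zero _ _ v23, box_zero _ _ v24]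
  hH := by
    intro j k hj h2 hk
    interval_cases j <;> interval_cases k
    exacts [box_zero _ _ h02, box_zero _ _ h03, box_zero _ _ h04, box_zero _ _ h12, box_zero _ _ h13, box_zero _ _ h14, box_zero _ _ h22, box_zero _ _ h23, box_zero _ _ h24]
  hB := by
    intro j hj
    interval_cases j
    exacts [box_zero _ _ b0, box_zero _ _ b1, box_zero _ _ b2]
  hS := by
    intro j hj
    interval_cases j
    exacts [box_zero _ _ s0, box_zero _ _ s1, box_zero _ _ s2]
  hR := by
    intro j hj
    interval_cases j
    exacts [box_zero _ _ r0, box_zero _ _ r1, box_zero _ _ r2]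
  hpsi := by
    intro j hj P C
    interval_cases j <;> simp [Finset.sum_range_succ, psi, psil, h2sR] <;> ring

end Vale.Agent.P154.A4
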