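import Vale.Agent.P154.Cert

/-! Certificate for `d = 2`. -/

namespace Vale.Agent.P154.D2

def f : CL := [(115, 1023), (-406, 1023), (719, 1023), (-793, 1023), (478, 1023), (-113, 1023)]
def e2 : CL := [(730, 1023), (-2087, 1023), (2088, 1023)]
def e3 : CL := [(-720, 1023), (4084, 1023), (-5775, 1023)]

def t1 : Tree := (.s0 (.leaf 60 6 17 1 1) (.s0 (.leaf 68 6 17 1 1) (.s1 (.leaf 83 6 17 1 1) (.leaf 86 6 17 1 1))))
def t2 : Tree := (.s1 (.s0 (.leaf 105 6 28 1 1) (.s0 (.leaf 107 6 28 1 1) (.leaf 107 6 28 1 1))) (.leaf 119 6 28 1 1))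
def t3 : Tree := (.leaf 162 37 19 7 7)
def t4 : Tree := (.leaf 68 16 16 6 1)

theorem h1 : t1.ok 0 1 0 0 (A1 (1, 1) f e2 e3) unitBx = true := by decide +kernel
theorem h2 : t2.ok 0 1 0 0 (A2 (2, 1) f e2 e3) unitBx = true := by decide +kernel
theorem h4 : t4.ok 0 1 0 0 (monoE f) unitBx = true := by decide +kernel
theorem h3 : t3.ok (1 + 1) 10000 14142 14143 (baseE1 f f e2 e3 (1, 1) (1, 99) (L2c 1) (L3c 1))
    unitBx = true := by decide +kernel

end Vale.Agent.P154.D2
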