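import Vale.Agent.P154.Data.Q3

/-! The stationary potential covers all eigenvalues in `(0, 1/3]`. -/

namespace Vale.Agent.P154.Q3

theorem ptB : PtB D (1 - cv (1, 2)) (1 + cv (2, 2)) where
  hf := pointwise4 0 1 D.f D.f2 D.f3 D.f4 (1, 2) (2, 2) (by norm_num [cv]) (by norm_num [cv])
    (by norm_num [cv]) (by decide) (by decide) (by decide) (by decide) (by decide)
    (fun θ v a b c d => box_zero _ _ h0 θ v 0 0 a b c d le_rfl zero_le_one le_rfl zero_le_one)
    (fun θ v a b c d => box_zero _ _ h1 θ v 0 0 a b c d le_rfl zero_le_one le_rfl zero_le_one)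
  hg := pointwise4 1 0 D.g D.g2 D.g3 D.g4 (1, 2) (2, 2) (by norm_num [cv]) (by norm_num [cv])
    (by norm_num [cv]) (by decide) (by decide) (by decide) (by decide) (by decide)
    (fun θ v a b c d => box_zero _ _ h2 θ v 0 0 a b c d le_rfl zero_le_one le_rfl zero_le_one)
    (fun θ v a b c d => box_zero _ _ h3 θ v 0 0 a b c d le_rfl zero_le_one le_rfl zero_le_one)
  hh := pointwise4 3 0 D.h D.h2 D.h3 D.h4 (1, 2) (2, 2) (by norm_num [cv]) (by norm_num [cv])
    (by norm_num [cv]) (by decide) (by decide) (by decide) (by decide) (by decide)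
    (fun θ v a b c d => box_zero _ _ h4 θ v 0 0 a b c d le_rfl zero_le_one le_rfl zero_le_one)
    (fun θ v a b c d => box_zero _ _ h5 θ v 0 0 a b c d le_rfl zero_le_one le_rfl zero_le_one)

theorem mergeIneq : MergeIneq D (1 / 3) (cv (1, 999)) := by
  refine hom_step3 (1 / 3) D (cv (1, 999)) _ _ (by norm_num) (by norm_num) ?_ ?_ ptB ?_
  · norm_num [cv]
  · norm_num [cv]
  · exact HR4_step 0 (1 / 3) D (.q 1 8) (.q 1 26) (1, 999)
      (by intro v; rw [PE.real_q]; norm_num) (by intro v; rw [PE.real_q]; norm_num)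
      (box_zero _ _ h8) (box_zero _ _ h9)

theorem quad : Quad D := quad_of_box D (box_zero _ _ h6)
theorem pos : PosV D := pos_of_box D (box_zero _ _ h7)
theorem f_one : hr D.f 1 = 0 := by norm_num [D, hr, cv]

theorem no_rec (d : ℕ) (hd : 2 ≤ d) (lam : ℝ) (h0 : 0 < lam) (h1 : lam ≤ 1 / 3)
    (h2 : (d : ℝ) * lam ^ 2 ≤ 1) :
    Filter.Tendsto (fun n => aSeq 3 d lam n) Filter.atTop (nhds 0) := by
  have hM := mergeIneq.thin quad (3 * lam) (by positivity) (by linarith)
  have e : 1 / 3 * (3 * lam) = lam := by ring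
  rw [e] at hM
  exact (method3 hM f_one pos (by unfold cv; positivity) h0.ne' (by linarith) (by linarith) d hd
    h2).result

end Vale.Agent.P154.Q3
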