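import Vale.Agent.P154.Data.U7D

/-! Certificates of a uniform family of potentials, node 1. -/

namespace Vale.Agent.P154.U7

def t_h111 : Tree := (.s0 (.leaf 163 14 14 6 6) (.leaf 167 14 14 6 6))
theorem h111_0 : (Tree.leaf 163 14 14 6 6).ok 0 1 0 0 (VE1 1 D10 D11 (196, 1368) (-2744, 50652) (tau1 (196, 1368)) p10 p11 k0 k1)
    ⟨0, 1, 2, 0, 1, 1, 0, 1, 1, 0, 1, 1⟩ = true := by decide +kernel
theorem h111_1 : (Tree.leaf 167 14 14 6 6).ok 0 1 0 0 (VE1 1 D10 D11 (196, 1368) (-2744, 50652) (tau1 (196, 1368)) p10 p11 k0 k1)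
    ⟨1, 2, 2, 0, 1, 1, 0, 1, 1, 0, 1, 1⟩ = true := by decide +kernel
theorem h111 : t_h111.ok 0 1 0 0 (VE1 1 D10 D11 (196, 1368) (-2744, 50652) (tau1 (196, 1368)) p10 p11 k0 k1) unitBx = true :=
  (Tree.ok_s0 h111_0 h111_1)

end Vale.Agent.P154.U7
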