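import Vale.Agent.P154.Data.U7D

/-! Certificates of a uniform family of potentials, node 2. -/

namespace Vale.Agent.P154.U7

def t_h210 : Tree := (.s2 (.leaf 157 14 14 6 6) (.leaf 158 14 14 6 6))
theorem h210_0 : (Tree.leaf 157 14 14 6 6).ok 0 1 0 0 (VE1 2 D20 D21 (196, 1368) (-2744, 50652) (tau0 (196, 1368)) p20 p21 k0 k1)
    ⟨0, 1, 1, 0, 1, 1, 0, 1, 2, 0, 1, 1⟩ = true := by decide +kernel
theorem h210_1 : (Tree.leaf 158 14 14 6 6).ok 0 1 0 0 (VE1 2 D20 D21 (196, 1368) (-2744, 50652) (tau0 (196, 1368)) p20 p21 k0 k1)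
    ⟨0, 1, 1, 0, 1, 1, 1, 2, 2, 0, 1, 1⟩ = true := by decide +kernel
theorem h210 : t_h210.ok 0 1 0 0 (VE1 2 D20 D21 (196, 1368) (-2744, 50652) (tau0 (196, 1368)) p20 p21 k0 k1) unitBx = true :=
  (Tree.ok_s2 h210_0 h210_1)

end Vale.Agent.P154.U7
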