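import Vale.Agent.P154.Data.U7N0
import Vale.Agent.P154.Data.U7N1
import Vale.Agent.P154.Data.U7N2
import Vale.Agent.P154.Data.U7H00
import Vale.Agent.P154.Data.U7H01
import Vale.Agent.P154.Data.U7H02
import Vale.Agent.P154.Data.U7H03
import Vale.Agent.P154.Data.U7H10
import Vale.Agent.P154.Data.U7H11
import Vale.Agent.P154.Data.U7H12
import Vale.Agent.P154.Data.U7H13
import Vale.Agent.P154.Data.U7H20
import Vale.Agent.P154.Data.U7H21
import Vale.Agent.P154.Data.U7H22
import Vale.Agent.P154.Data.U7H23

/-! A certified uniform family of potentials. -/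

namespace Vale.Agent.P154.U7

theorem cert : UnifCert (-14 / 37) D psi hh (196, 1368) (-2744, 50652) (28, 36) (14, 36) (4, 4095) (1173, 2737) (1565, 2737) w2 where
  hl0 := by norm_num
  hl1 := by norm_num
  hne := by norm_num
  e2 := by norm_num [cv]
  e3 := by norm_num [cv]
  hδ := by norm_num [cv]
  hwa := by norm_num [cv]
  hwa' := by norm_num [cv]
  r1 := by norm_num [cv]
  r2 := by norm_num [cv]
  r3 := by norm_num [cv]
  r4 := by norm_num [cv]
  hc := by norm_num [cv]
  hc' := by norm_num [cv]
  hU0 := by
    intro j k hj hk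
    interval_cases j <;> interval_cases k
    exacts [box_zero _ _ u00, box_zero _ _ u01, box_zero _ _ u10, box_zero _ _ u11, box_zero _ _ u20, box_zero _ _ u21]
  hU1 := by
    intro j k hj hk
    interval_cases j <;> interval_cases k
    exacts [box_zero _ _ v00, box_zero _ _ v01, box_zero _ _ v10, box_zero _ _ v11, box_zero _ _ v20, box_zero _ _ v21]
  hV00 := by
    intro j hj
    interval_cases j
    exacts [box_zero _ _ h000, box_zero _ _ h100, box_zero _ _ h200]
  hV01 := by
    intro j hj
    interval_cases j
    exacts [box_zero _ _ h001, box_zero _ _ h101, box_zero _ _ h201]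
  hV10 := by
    intro j hj
    interval_cases j
    exacts [box_zero _ _ h010, box_zero _ _ h110, box_zero _ _ h210]
  hV11 := by
    intro j hj
    interval_cases j
    exacts [box_zero _ _ h011, box_zero _ _ h111, box_zero _ _ h211]
  hS0 := by
    intro j hj
    interval_cases j
    exacts [box_zero _ _ s0, box_zero _ _ s1, box_zero _ _ s2]
  hS1 := by
    intro j hj
    interval_cases j
    exacts [box_zero _ _ q0, box_zero _ _ q1, box_zero _ _ q2]
  hR := by
    intro j hj
    interval_cases j
    exacts [box_zero _ _ r0, box_zero _ _ r1, box_zero _ _ r2]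
  hw2 := by
    intro j hj
    interval_cases j <;> norm_num [gR, wR, hr, cv, D, D00, D10, D20, w2]

end Vale.Agent.P154.U7
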